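import Vale.Agent.P117.Main3

open MeasureTheory Vale.Agent.P117

theorem Vale.Agent.Results.P117.AllTensor.result (δ p : ℝ) (h1 : 1 < p) (h4 : p ≤ 4)
    (hδ : max (3 / p - 2) 0 < δ) :
    ∃ C : NNReal, ∀ g : Fin 3 → SchwartzMap ℝ ℂ,
      eLpNorm (BR δ (tens g)) (ENNReal.ofReal p) volume ≤
        C * eLpNorm (tens g) (ENNReal.ofReal p) volume :=
  t_lp s_lprod δ p (by linarith) (b_all δ p h1 h4 hδ)
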