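import Vale.Agent.P117.Main2

open MeasureTheory Vale.Agent.P117

theorem Vale.Agent.Results.P117.Tensor.result (δ p : ℝ) (hδ : 0 < δ) (h2 : 2 ≤ p) (h4 : p ≤ 4) :
    ∃ C : NNReal, ∀ g : Fin 3 → SchwartzMap ℝ ℂ,
      eLpNorm (BR δ (tens g)) (ENNReal.ofReal p) volume ≤
        C * eLpNorm (tens g) (ENNReal.ofReal p) volume :=
  t_lp s_lprod δ p (by linarith)
    (t_fin s_lprod a_kmeas s_w1 s_hold2 a_pt δ p hδ h2 h4 (a_phi δ p hδ h2 h4))
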